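import Mathlib
import Vale.Agent.Helper21.MarkovDefs
import Vale.Agent.Helper21.MarkovLemmas

namespace Vale.Agent.Results.P125.SmallConstant

open Vale.Agent.Helper21.MarkovDefs Vale.Agent.Helper21.MarkovLemmas

/-- Markov type `p` with a small constant forces J-convexity.
Let `X` be a real normed space with Markov type `p > 1` with constant `K`.
(1) every finite family satisfies an averaged two-point inequality;
(2) a von Neumann-Jordan type inequality with constant `4 K^p - 2^(p-1)`;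
(3) if `K ^ p < 2 ^ (p - 1)` then `X` is J-convex in the sense of James;
(4) if `p = 2` and `K = 1` the norm satisfies the parallelogram law. -/
theorem result (X : Type) [NormedAddCommGroup X] [NormedSpace ℝ X] (p K : ℝ) (hp : 1 < p)
    (hK : 0 ≤ K) (h : MarkovType X p K) :
    (∀ (n : ℕ) (w : Fin n → X),
        (∑ i, ∑ j, if i = j then 0 else (‖w i + w j‖ ^ p + ‖w i - w j‖ ^ p))
          ≤ 4 * K ^ p * (n : ℝ) * ∑ i, ‖w i‖ ^ p)
    ∧ (∀ u v : X,
        ‖u + v‖ ^ p + ‖u - v‖ ^ p ≤ (4 * K ^ p - 2 ^ (p - 1)) * (‖u‖ ^ p + ‖v‖ ^ p))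
    ∧ (K ^ p < 2 ^ (p - 1) →
        ∃ n : ℕ, 2 ≤ n ∧ ∃ δ : ℝ, 0 < δ ∧ ∀ x : Fin n → X, (∀ i, ‖x i‖ ≤ 1) →
          ∃ k : Fin n,
            ‖∑ i : Fin n, (if i.val < k.val then x i else - x i)‖ ≤ (n : ℝ) - δ)
    ∧ (p = 2 → K = 1 →
        ∀ u v : X, ‖u + v‖ ^ 2 + ‖u - v‖ ^ 2 = 2 * (‖u‖ ^ 2 + ‖v‖ ^ 2)) := by
  have hp0 : p ≠ 0 := by linarith
  refine ⟨fun n w => key_fin p K hp0 h n w, fun u v => nj p K hp0 h u v,
    fun hlt => jconvex p K hp.le hK h hlt, ?_⟩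
  intro hp2 hK1 u v
  subst hp2
  subst hK1
  exact parallelogram h u v

end Vale.Agent.Results.P125.SmallConstant
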