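import Mathlib
import Vale.Agent.Results.P125.SmallConstant

namespace Vale.Agent.Results.P125.JConvexPlain

open Vale.Agent.Helper21.MarkovDefs

/-- **Markov type with a small constant forces J-convexity (plain form).**
Let `X` be a real normed space, `p > 1` and `K ≥ 0` with `K ^ p < 2 ^ (p - 1)`.
Assume the Markov type `p` inequality with constant `K`, written out: for every finite
set `S`, every transition matrix `P` on `S` (nonnegative entries, rows summing to one),
every probability vector `π` on `S` with `π i * P i j = π j * P j i` (so the chain with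
initial law `π` is stationary and reversible), every map `f : S → X` and every `t ≥ 1`,
`E ‖f (Z_t) - f (Z_0)‖ ^ p ≤ K ^ p * t * E ‖f (Z_1) - f (Z_0)‖ ^ p`, where the pair
`(Z_0, Z_t)` has law `π i * (P ^ t) i j`.
Then `X` is J-convex in the sense of James: there are `n ≥ 2` and `δ > 0` such that any
`n` vectors `x_0, ..., x_{n-1}` of the unit ball admit an index `k` with
`‖∑_{i < k} x_i - ∑_{i ≥ k} x_i‖ ≤ n - δ`. -/
theorem result (X : Type) [NormedAddCommGroup X] [NormedSpace ℝ X] (p K : ℝ) (hp : 1 < p)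
    (hK : 0 ≤ K) (hlt : K ^ p < 2 ^ (p - 1))
    (h : ∀ (S : Type) [Fintype S] [DecidableEq S] (P : Matrix S S ℝ) (π : S → ℝ),
      (∀ i j, 0 ≤ P i j) → (∀ i, ∑ j, P i j = 1) → (∀ i, 0 ≤ π i) → ∑ i, π i = 1 →
      (∀ i j, π i * P i j = π j * P j i) →
      ∀ (f : S → X) (t : ℕ), 1 ≤ t →
        ∑ i, ∑ j, π i * (P ^ t) i j * ‖f i - f j‖ ^ p
          ≤ K ^ p * (t : ℝ) * ∑ i, ∑ j, π i * P i j * ‖f i - f j‖ ^ p) :
    ∃ n : ℕ, 2 ≤ n ∧ ∃ δ : ℝ, 0 < δ ∧ ∀ x : Fin n → X, (∀ i, ‖x i‖ ≤ 1) →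
      ∃ k : Fin n,
        ‖∑ i : Fin n, (if i.val < k.val then x i else - x i)‖ ≤ (n : ℝ) - δ := by
  have hM : MarkovType X p K := by
    intro S _ _ c f t ht
    have h1 := h S (Matrix.of c.P) c.pi c.P_nonneg c.P_sum c.pi_nonneg c.pi_sum c.rev f t ht
    have e1 : displacement c f p 1
        = ∑ i, ∑ j, c.pi i * (Matrix.of c.P) i j * ‖f i - f j‖ ^ p := by
      unfold displacement
      rw [pow_one]
    rw [e1]
    exact h1
  exact (Vale.Agent.Results.P125.SmallConstant.result X p K hp hK hM).2.2.1 hlt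

end Vale.Agent.Results.P125.JConvexPlain
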