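import Mathlib
import Vale.Agent.Helper21.MarkovDefs
import Vale.Agent.Helper21.MarkovSumDefs
import Vale.Agent.Helper21.MarkovTransfer

namespace Vale.Agent.Results.P125.SummingTransfer

open Vale.Agent.Helper21.MarkovDefs Vale.Agent.Helper21.MarkovSumDefs
  Vale.Agent.Helper21.MarkovTransfer

/-- Transfer principle for Markov type and the summing operator.
(1) If `X` has Markov type `p` with constant `K` and some stationary reversible chain with a
map `f` into `Fin n → ℝ` violates the Markov type inequality of the summing operator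
(summing norm after `t` steps against the `l1` norm of one step) with the same constant `K`,
then `X` is J-convex of order `n`: there is `δ > 0` such that every `n` vectors of the unit
ball have a James sign pattern of norm at most `n - δ`.
(2) Such violations exist whenever `K ^ p < 2 ^ (p - 1)`. -/
theorem result (X : Type) [NormedAddCommGroup X] [NormedSpace ℝ X] (p K : ℝ) (hp : 1 ≤ p)
    (hK : 0 ≤ K) :
    (MarkovType X p K →
      ∀ (n : ℕ) (S : Type) [Fintype S] [DecidableEq S] (c : RevChain S) (f : S → Fin n → ℝ)
        (t : ℕ), 1 ≤ t → K ^ p * (t : ℝ) * l1Disp c f p < sumDisp c f p t →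
        ∃ δ : ℝ, 0 < δ ∧ ∀ x : Fin n → X, (∀ l, ‖x l‖ ≤ 1) →
          ∃ k : Fin n,
            ‖∑ l : Fin n, (if l.val < k.val then x l else - x l)‖ ≤ (n : ℝ) - δ)
    ∧ (K ^ p < 2 ^ (p - 1) →
        ∃ n : ℕ, 2 ≤ n ∧ ∃ (c : RevChain (Fin n → Bool)) (f : (Fin n → Bool) → Fin n → ℝ),
          K ^ p * ((2 : ℕ) : ℝ) * l1Disp c f p < sumDisp c f p 2) := by
  refine ⟨?_, fun hlt => violation p K (by linarith) hK hlt⟩
  intro h n S _ _ c f t ht hviol
  exact transfer p K hp hK h n S c f t ht hviol

end Vale.Agent.Results.P125.SummingTransfer
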